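import Mathlib

/-! # P208g units G4, G5: real analysis -/

namespace P208

/-- G4.  By contradiction `θ := N * q ^ m < 1`.  For large `j` put `K := ⌊c / (4 * (L + 1) * q ^ j)⌋₊`.  Then
`2 * K * L * q ^ j ≤ c / 2` and `2 * q ^ j ≤ c / 2` (as `q ^ j → 0`), so the hypothesis applies; and
`K ≥ c / (4 (L+1) q^j) - 1 ≥ c / (8 (L+1) q^j)` for large `j`.  Hence
`(c / (8 (L+1))) ^ m ≤ (K q^j)^m ≤ N^j q^(j m) = θ ^ j → 0`, a contradiction
(`tendsto_pow_atTop_nhds_zero_of_lt_one`). -/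
theorem analytic (N m : ℕ) (c L q : ℝ) (hc : 0 < c) (hL : 0 ≤ L) (hq0 : 0 < q) (hq1 : q < 1)
    (h : ∀ j K : ℕ, 2 * ((K : ℝ) * L + 1) * q ^ j ≤ c → K ^ m ≤ N ^ j) :
    1 ≤ (N : ℝ) * q ^ m := by
  by_contra hcon
  push Not at hcon
  set θ : ℝ := (N : ℝ) * q ^ m with hθ
  have hθ0 : 0 ≤ θ := by positivity
  have hL1 : 0 < L + 1 := by linarith
  set a : ℝ := c / (8 * (L + 1)) with ha
  have ha0 : 0 < a := by positivity
  have ham : 0 < a ^ m := by positivity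
  have t1 : Filter.Tendsto (fun j : ℕ => q ^ j) Filter.atTop (nhds 0) :=
    tendsto_pow_atTop_nhds_zero_of_lt_one hq0.le hq1
  have t2 : Filter.Tendsto (fun j : ℕ => θ ^ j) Filter.atTop (nhds 0) :=
    tendsto_pow_atTop_nhds_zero_of_lt_one hθ0 hcon
  have e1 : ∀ᶠ j : ℕ in Filter.atTop, q ^ j < a := t1.eventually (gt_mem_nhds ha0)
  have e2 : ∀ᶠ j : ℕ in Filter.atTop, θ ^ j < a ^ m := t2.eventually (gt_mem_nhds ham)
  obtain ⟨j, hj1, hj2⟩ := (e1.and e2).exists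
  set ε : ℝ := q ^ j with hε
  have hε0 : 0 < ε := by positivity
  set x : ℝ := c / (4 * (L + 1) * ε) with hx
  have hx0 : 0 ≤ x := by positivity
  set K : ℕ := ⌊x⌋₊ with hK
  have hK1 : (K : ℝ) ≤ x := Nat.floor_le hx0
  have hK2 : x < (K : ℝ) + 1 := Nat.lt_floor_add_one x
  have hxε : x * ε = c / (4 * (L + 1)) := by
    rw [hx]
    field_simp
  have h2a : c / (4 * (L + 1)) = 2 * a := by
    rw [ha]
    field_simp
    ring
  have hKε1 : (K : ℝ) * ε ≤ 2 * a := by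
    rw [← h2a, ← hxε]
    exact mul_le_mul_of_nonneg_right hK1 hε0.le
  have hKε2 : a ≤ (K : ℝ) * ε := by
    have h3 : x * ε < ((K : ℝ) + 1) * ε := mul_lt_mul_of_pos_right hK2 hε0
    rw [hxε, h2a] at h3
    nlinarith
  have hcond : 2 * ((K : ℝ) * L + 1) * ε ≤ c := by
    have hc' : c = a * (8 * (L + 1)) := by
      rw [ha]
      field_simp
    have h4 : 2 * ((K : ℝ) * L + 1) * ε = 2 * (((K : ℝ) * ε) * L) + 2 * ε := by ring
    have h5 := mul_le_mul_of_nonneg_right hKε1 hL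
    rw [h4, hc']
    nlinarith
  have hmain := h j K hcond
  have hmainR : ((K : ℝ)) ^ m ≤ (N : ℝ) ^ j := by exact_mod_cast hmain
  have hfin : a ^ m ≤ θ ^ j := by
    calc a ^ m ≤ ((K : ℝ) * ε) ^ m := pow_le_pow_left₀ ha0.le hKε2 m
      _ = (K : ℝ) ^ m * ε ^ m := mul_pow _ _ _
      _ ≤ (N : ℝ) ^ j * ε ^ m := mul_le_mul_of_nonneg_right hmainR (by positivity)
      _ = θ ^ j := by rw [hθ, hε, mul_pow, ← pow_mul, ← pow_mul, mul_comm j m]
  linarith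

/-- G5.  Let `q → 1/2` from above: `q ↦ N * q ^ m` is continuous, so `1 ≤ N * (1/2) ^ m`
(`ge_of_tendsto` along `nhdsWithin (1/2) (Set.Ioi (1/2))`, or by contradiction with `ContinuousAt.eventually_lt`). -/
theorem limit_q (N m : ℕ) (h : ∀ q : ℝ, 1 / 2 < q → q < 1 → 1 ≤ (N : ℝ) * q ^ m) : 2 ^ m ≤ N := by
  have hcont : Continuous fun q : ℝ => (N : ℝ) * q ^ m := by fun_prop
  have hq : Filter.Tendsto (fun k : ℕ => (1 / 2 : ℝ) + (1 / 3) * (1 / ((k : ℝ) + 1)))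
      Filter.atTop (nhds (1 / 2 + (1 / 3) * 0)) :=
    tendsto_const_nhds.add (tendsto_one_div_add_atTop_nhds_zero_nat.const_mul (1 / 3))
  have hlim := (hcont.tendsto (1 / 2 + (1 / 3) * 0)).comp hq
  have h1 : (1 : ℝ) ≤ (N : ℝ) * (1 / 2 + 1 / 3 * 0) ^ m := by
    refine ge_of_tendsto' hlim (fun k => ?_)
    have hk0 : (0 : ℝ) < 1 / ((k : ℝ) + 1) := by positivity
    have hk1 : 1 / ((k : ℝ) + 1) ≤ 1 := by
      rw [div_le_one (by positivity)]
      have : (0 : ℝ) ≤ (k : ℝ) := Nat.cast_nonneg k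
      linarith
    exact h _ (by linarith) (by linarith)
  have h2 : (1 : ℝ) ≤ N * (1 / 2) ^ m := by simpa using h1
  have h3 : (2 : ℝ) ^ m ≤ N := by
    have h4 : (1 / 2 : ℝ) ^ m = 1 / 2 ^ m := by rw [div_pow, one_pow]
    rw [h4, mul_one_div, le_div_iff₀ (by positivity)] at h2
    linarith
  exact_mod_cast h3

end P208
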