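import Vale.Agent.Lib.P208.Defs

/-! # P208g unit G2: integer combinations of linearly independent vectors are uniformly separated -/

namespace P208
variable {E : Type*} [NormedAddCommGroup E] [InnerProductSpace ℝ E]

/-- G2a.  `T : (Fin m → ℝ) →ₗ[ℝ] E`, `T a = ∑ i, a i • v i` (`Fintype.linearCombination ℝ v`) is injective
(`LinearIndependent`, `Fintype.linearIndependent_iff` / `LinearIndependent.fintypeLinearCombination_injective`), so
`LinearMap.exists_antilipschitzWith` gives `K > 0` with `‖a‖ ≤ K ‖T a‖`; for `a ≠ b` natural vectors the sup norm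
of `(a - b : Fin m → ℝ)` is at least `1` (`norm_le_pi_norm` at a coordinate where they differ).  `c = 1 / K`. -/
theorem exists_sep {m : ℕ} (v : Fin m → E) (hv : LinearIndependent ℝ v) :
    ∃ c : ℝ, 0 < c ∧ ∀ a b : Fin m → ℕ, a ≠ b → c ≤ ‖∑ i, a i • v i - ∑ i, b i • v i‖ := by
  set T : (Fin m → ℝ) →ₗ[ℝ] E := Fintype.linearCombination ℝ v with hT
  have hker : LinearMap.ker T = ⊥ := by
    rw [LinearMap.ker_eq_bot]
    exact hv.fintypeLinearCombination_injective
  obtain ⟨K, hK, hanti⟩ := LinearMap.exists_antilipschitzWith T hker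
  have hKpos : (0 : ℝ) < K := by exact_mod_cast hK
  refine ⟨1 / K, by positivity, ?_⟩
  intro a b hab
  set a' : Fin m → ℝ := fun i => (a i : ℝ) with ha'
  set b' : Fin m → ℝ := fun i => (b i : ℝ) with hb'
  have hTa : T a' = ∑ i, a i • v i := by
    rw [hT, Fintype.linearCombination_apply]
    exact Finset.sum_congr rfl fun i _ => by rw [ha']; simp [Nat.cast_smul_eq_nsmul]
  have hTb : T b' = ∑ i, b i • v i := by
    rw [hT, Fintype.linearCombination_apply]
    exact Finset.sum_congr rfl fun i _ => by rw [hb']; simp [Nat.cast_smul_eq_nsmul]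
  have h1 := hanti.le_mul_dist a' b'
  rw [dist_eq_norm, dist_eq_norm, hTa, hTb] at h1
  obtain ⟨i, hi⟩ : ∃ i, a i ≠ b i := by
    by_contra hcon
    push Not at hcon
    exact hab (funext hcon)
  have h2 : (1 : ℝ) ≤ ‖a' - b'‖ := by
    have h3 : ‖(a' - b') i‖ ≤ ‖a' - b'‖ := norm_le_pi_norm _ i
    refine le_trans ?_ h3
    simp only [Pi.sub_apply, ha', hb', Real.norm_eq_abs]
    have h4 : ((a i : ℤ) - (b i : ℤ)) ≠ 0 := by
      intro h5
      apply hi
      have : (a i : ℤ) = b i := by linarith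
      exact_mod_cast this
    have h5 : (1 : ℤ) ≤ |(a i : ℤ) - (b i : ℤ)| := Int.one_le_abs h4
    have h6 : ((1 : ℤ) : ℝ) ≤ ((|(a i : ℤ) - (b i : ℤ)| : ℤ) : ℝ) := by exact_mod_cast h5
    simpa using h6
  rw [div_le_iff₀ hKpos]
  calc (1 : ℝ) ≤ ‖a' - b'‖ := h2
    _ ≤ K * ‖∑ i, a i • v i - ∑ i, b i • v i‖ := h1
    _ = _ := by ring

/-- G2b.  `norm_sum_le`, `norm_nsmul_le` / `nsmul_eq_smul_cast`, `Finset.mul_sum`. -/
theorem norm_comb_le {m : ℕ} (v : Fin m → E) (K : ℕ) (a : Fin m → ℕ) (ha : ∀ i, a i ≤ K) :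
    ‖∑ i, a i • v i‖ ≤ (K : ℝ) * ∑ i, ‖v i‖ := by
  rw [Finset.mul_sum]
  refine (norm_sum_le _ _).trans (Finset.sum_le_sum fun i _ => ?_)
  refine (norm_nsmul_le).trans ?_
  exact mul_le_mul_of_nonneg_right (by exact_mod_cast ha i) (norm_nonneg _)

end P208
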