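import Vale.Agent.Lib.P208g.Iter
import Vale.Agent.Lib.P208g.Lattice

/-! # P208g unit G3: counting lattice points -/

namespace P208
variable {E : Type*} [NormedAddCommGroup E] [InnerProductSpace ℝ E]

/-- G3.  `R := K * ∑ ‖v i‖ + 1 > 0`.  `iterate_cover` at `x = 0` (in `Γ`) with `R, q, j` gives `t`, `card t ≤ N ^ j`.
For `a : Fin m → Fin K` the point `p a = ∑ i, (a i : ℕ) • v i` is in `Γ` (`AddSubgroup.sum_mem`, `nsmul_mem`) and in
`ball 0 R` (`norm_comb_le`), so it lies in `ball y (R * q ^ j)` for some `y = φ a ∈ t`.  `φ` is injective: if `φ a = φ b`, `a ≠ b`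
then `‖p a - p b‖ < 2 * R * q ^ j ≤ c`, against `hc`.  So `K ^ m = card (Fin m → Fin K) ≤ card t`
(`Finset.card_le_card_of_injOn` / `Fintype.card_le_of_injective` into `t`). -/
theorem count_le (Γ : AddSubgroup E) (N : ℕ) (hd : DoublingWith (Γ : Set E) N) {m : ℕ}
    (v : Fin m → E) (hv : ∀ i, v i ∈ Γ) (c : ℝ)
    (hc : ∀ a b : Fin m → ℕ, a ≠ b → c ≤ ‖∑ i, a i • v i - ∑ i, b i • v i‖)
    (q : ℝ) (hq : 1 / 2 < q) (j K : ℕ)
    (h : 2 * ((K : ℝ) * ∑ i, ‖v i‖ + 1) * q ^ j ≤ c) : K ^ m ≤ N ^ j := by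
  classical
  set R : ℝ := (K : ℝ) * ∑ i, ‖v i‖ + 1 with hR
  have hL : 0 ≤ ∑ i, ‖v i‖ := Finset.sum_nonneg fun i _ => norm_nonneg _
  have hRpos : 0 < R := by positivity
  obtain ⟨t, htΓ, hcard, hcov⟩ := iterate_cover (Γ : Set E) N hd 0 Γ.zero_mem R hRpos q hq j
  set p : (Fin m → Fin K) → E := fun a => ∑ i, ((a i : ℕ)) • v i with hp
  have hpΓ : ∀ a, p a ∈ (Γ : Set E) := fun a =>
    Γ.sum_mem fun i _ => Γ.nsmul_mem (hv i) _
  have hpball : ∀ a, p a ∈ Metric.ball (0 : E) R := by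
    intro a
    rw [Metric.mem_ball, dist_zero_right]
    have := norm_comb_le v K (fun i => (a i : ℕ)) (fun i => (a i).2.le)
    calc ‖p a‖ ≤ (K : ℝ) * ∑ i, ‖v i‖ := this
      _ < R := by rw [hR]; linarith
  have hex : ∀ a, ∃ y ∈ t, p a ∈ Metric.ball y (R * q ^ j) := by
    intro a
    have := hcov ⟨hpΓ a, hpball a⟩
    simpa only [Set.mem_iUnion, exists_prop] using this
  choose φ hφt hφ using hex
  have hinj : Function.Injective φ := by
    intro a b hab
    by_contra hne
    have hne' : (fun i => (a i : ℕ)) ≠ (fun i => (b i : ℕ)) := by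
      intro h2
      apply hne
      funext i
      exact Fin.ext (congrFun h2 i)
    have h1 := hc _ _ hne'
    have h2 : dist (p a) (p b) < R * q ^ j + R * q ^ j := by
      have ha := hφ a
      have hb := hφ b
      rw [hab] at ha
      rw [Metric.mem_ball] at ha hb
      calc dist (p a) (p b) ≤ dist (p a) (φ b) + dist (φ b) (p b) := dist_triangle _ _ _
        _ < R * q ^ j + R * q ^ j := by
          rw [dist_comm (φ b) (p b)]
          exact add_lt_add ha hb
    rw [dist_eq_norm] at h2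
    have h3 : ‖p a - p b‖ < c := by
      calc ‖p a - p b‖ < R * q ^ j + R * q ^ j := h2
        _ = 2 * R * q ^ j := by ring
        _ ≤ c := h
    exact absurd h1 (not_le.2 h3)
  have hcard2 : Fintype.card (Fin m → Fin K) ≤ t.card := by
    have := Finset.card_le_card_of_injOn (s := (Finset.univ : Finset (Fin m → Fin K))) (t := t) φ
      (fun a _ => hφt a) (fun a _ b _ hab => hinj hab)
    simpa using this
  have : Fintype.card (Fin m → Fin K) = K ^ m := by simp
  rw [this] at hcard2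
  exact hcard2.trans hcard

end P208
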