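import Vale.Agent.Lib.P208.Defs

/-! # P208g unit G1: iterating the doubling condition -/

namespace P208
variable {E : Type*} [NormedAddCommGroup E] [InnerProductSpace ℝ E]

/-- G1.  Induction on `j`. -/
theorem iterate_cover (X : Set E) (N : ℕ) (hd : DoublingWith X N) (x : E) (hx : x ∈ X) (r : ℝ)
    (hr : 0 < r) (q : ℝ) (hq : 1 / 2 < q) (j : ℕ) :
    ∃ t : Finset E, (↑t ⊆ X) ∧ t.card ≤ N ^ j ∧
      X ∩ Metric.ball x r ⊆ ⋃ y ∈ t, Metric.ball y (r * q ^ j) := by
  classical
  have hq0 : 0 < q := by linarith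
  induction j with
  | zero =>
    refine ⟨{x}, by simpa using hx, by simp, ?_⟩
    intro z hz
    simpa using hz.2
  | succ j ih =>
    obtain ⟨t, htX, hcard, hcov⟩ := ih
    have hρ : 0 < r * q ^ j := by positivity
    have key : ∀ y : E, ∃ s : Finset E, y ∈ X → ((↑s ⊆ X) ∧ s.card ≤ N ∧
        X ∩ Metric.ball y (r * q ^ j) ⊆ ⋃ z ∈ s, Metric.closedBall z (r * q ^ j / 2)) := by
      intro y
      by_cases hy : y ∈ X
      · obtain ⟨s, hs⟩ := hd y hy (r * q ^ j) hρ
        exact ⟨s, fun _ => hs⟩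
      · exact ⟨∅, fun h => absurd h hy⟩
    choose S hS using key
    refine ⟨t.biUnion S, ?_, ?_, ?_⟩
    · intro z hz
      simp only [Finset.coe_biUnion, Set.mem_iUnion, Finset.mem_coe, exists_prop] at hz
      obtain ⟨y, hy, hzy⟩ := hz
      exact (hS y (htX hy)).1 hzy
    · calc (t.biUnion S).card ≤ t.card * N :=
            Finset.card_biUnion_le_card_mul _ _ _ (fun y hy => (hS y (htX hy)).2.1)
        _ ≤ N ^ j * N := Nat.mul_le_mul_right _ hcard
        _ = N ^ (j + 1) := (pow_succ N j).symm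
    · intro z hz
      have h1 := hcov hz
      simp only [Set.mem_iUnion, exists_prop] at h1
      obtain ⟨y, hy, hzy⟩ := h1
      have h2 := (hS y (htX hy)).2.2 ⟨hz.1, hzy⟩
      simp only [Set.mem_iUnion, exists_prop] at h2
      obtain ⟨w, hw, hzw⟩ := h2
      simp only [Set.mem_iUnion, exists_prop]
      refine ⟨w, Finset.mem_biUnion.mpr ⟨y, hy, hw⟩, ?_⟩
      rw [Metric.mem_closedBall] at hzw
      rw [Metric.mem_ball]
      have : r * q ^ j / 2 < r * q ^ (j + 1) := by
        rw [pow_succ]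
        nlinarith
      linarith

end P208
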