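import Vale.Agent.Lib.P208g.Count
import Vale.Agent.Lib.P208g.Analytic
import Vale.Agent.Lib.P208.FinDim
import Vale.Agent.Lib.P208.Embed

/-! # P208g: doubling additive subgroups of a Hilbert space -/

namespace P208
variable {E : Type*} [NormedAddCommGroup E] [InnerProductSpace ℝ E]

theorem two_pow_le_of_linearIndependent (Γ : AddSubgroup E) (N : ℕ)
    (hd : DoublingWith (Γ : Set E) N) {m : ℕ} (v : Fin m → E) (hv : ∀ i, v i ∈ Γ)
    (hli : LinearIndependent ℝ v) : 2 ^ m ≤ N := by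
  obtain ⟨c, hc0, hc⟩ := exists_sep v hli
  apply limit_q
  intro q hq hq1
  apply analytic N m c (∑ i, ‖v i‖) q hc0 (Finset.sum_nonneg fun i _ => norm_nonneg _)
    (by linarith) hq1
  intro j K h
  exact count_le Γ N hd v hv c hc q hq j K h

theorem subgroup_doubling (Γ : AddSubgroup E) (N : ℕ) (hd : DoublingWith (Γ : Set E) N) :
    ∃ k : ℕ, 2 ^ k ≤ N ∧ ∃ f : E → EuclideanSpace ℝ (Fin k),
      ∀ x ∈ Γ, ∀ y ∈ Γ, dist (f x) (f y) = dist x y := by
  classical
  have hkey : ∀ s : Finset E, (↑s ⊆ (Γ : Set E)) →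
      2 ^ Module.finrank ℝ (Submodule.span ℝ (s : Set E)) ≤ N := by
    intro s hs
    obtain ⟨f, hf, -, hli⟩ := Submodule.exists_fun_fin_finrank_span_eq ℝ (s : Set E)
    exact two_pow_le_of_linearIndependent Γ N hd f (fun i => hs (hf i)) hli
  have hb : ∀ s : Finset E, (↑s ⊆ (Γ : Set E)) →
      Module.finrank ℝ (Submodule.span ℝ (s : Set E)) ≤ N := by
    intro s hs
    exact (Nat.lt_two_pow_self).le.trans (hkey s hs)
  obtain ⟨s, hsS, hspan⟩ := exists_finset_span_eq (Γ : Set E) N hb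
  have hfd : FiniteDimensional ℝ (Submodule.span ℝ (s : Set E)) :=
    FiniteDimensional.span_finset ℝ s
  refine ⟨Module.finrank ℝ (Submodule.span ℝ (s : Set E)), hkey s hsS, ?_⟩
  obtain ⟨f, hf⟩ := exists_isometry (Submodule.span ℝ (s : Set E)) 0 (Γ : Set E) (by
    intro x hx
    rw [hspan, sub_zero]
    exact Submodule.subset_span hx)
  exact ⟨f, fun x hx y hy => hf x hx y hy⟩

end P208
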